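import Vale.Agent.P244.Kit.SmJ

/-!
Kit MP: first touching points and the signs of the derivatives there; monotone comparison.
Plan `mp_first`: the set of `q ∈ Ω` with `0 ≤ F j q` for some `j` is compact; minimise the time on
it; on the compact slice at that time maximise `F j` over the slice and over `j`.
`mp_T`: difference quotients from the left (`t > 0`, `Ω` is a neighbourhood within `I × [0,1]`).
`mp_Y`: `F t` has a local maximum at the interior point `y`; first derivative zero, second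
derivative nonpositive (if it were positive, `dY F t` would be positive just right of `y`).
`cmp`: `monotoneOn_of_hasDerivWithinAt_nonneg` for `G ∓ g` on `[a, b]`.
-/

namespace Vale.Agent.P244

open scoped ContDiff Topology
open Set Filter Real

theorem mp_first {ι : Type} [Finite ι] {Ω : Set (ℝ × ℝ)} (hΩ : IsCompact Ω) {F : ι → Fn}
    (hF : ∀ j, ContinuousOn (fun p : ℝ × ℝ => F j p.1 p.2) Ω)
    (h : ∃ q ∈ Ω, ∃ j, 0 ≤ F j q.1 q.2) :
    ∃ p ∈ Ω, ∃ i, 0 ≤ F i p.1 p.2 ∧ (∀ q ∈ Ω, q.1 < p.1 → ∀ j, F j q.1 q.2 < 0) ∧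
      ∀ q ∈ Ω, q.1 = p.1 → ∀ j, F j q.1 q.2 ≤ F i p.1 p.2 := by
  have hK : IsCompact (⋃ j, Ω ∩ (fun p : ℝ × ℝ => F j p.1 p.2) ⁻¹' Ici 0) :=
    isCompact_iUnion fun j => hΩ.of_isClosed_subset
      ((hF j).preimage_isClosed_of_isClosed hΩ.isClosed isClosed_Ici) inter_subset_left
  obtain ⟨q, hq, j, hj⟩ := h
  obtain ⟨p0, hp0, hmin⟩ := hK.exists_isMinOn ⟨q, mem_iUnion.2 ⟨j, hq, hj⟩⟩
    continuous_fst.continuousOn
  obtain ⟨j0, k1, k2⟩ := mem_iUnion.1 hp0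
  have hS : IsCompact (Ω ∩ {q : ℝ × ℝ | q.1 = p0.1}) :=
    hΩ.inter_right (isClosed_eq continuous_fst continuous_const)
  choose P hP hM using fun j => hS.exists_isMaxOn ⟨p0, k1, rfl⟩ ((hF j).mono inter_subset_left)
  have : Nonempty ι := ⟨j⟩
  obtain ⟨i, hi⟩ := Finite.exists_max fun j => F j (P j).1 (P j).2
  have e : (P i).1 = p0.1 := (hP i).2
  refine ⟨P i, (hP i).1, i, le_trans k2 ((hM j0 ⟨k1, rfl⟩).trans (hi j0)), fun r hr hlt l => ?_,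
    fun r hr he l => (hM l ⟨hr, he.trans e⟩).trans (hi l)⟩
  by_contra hn
  have k3 : p0.1 ≤ r.1 := hmin (mem_iUnion.2 ⟨l, hr, not_lt.1 hn⟩)
  linarith

theorem mp_left {g : ℝ → ℝ} {d x : ℝ} (hd : HasDerivWithinAt g d (Iio x) x)
    (hm : ∀ᶠ s in 𝓝[<] x, g s ≤ g x) : 0 ≤ d := by
  refine ge_of_tendsto ((hasDerivWithinAt_iff_tendsto_slope' self_notMem_Iio).1 hd) ?_
  filter_upwards [hm, self_mem_nhdsWithin] with s h1 h2
  rw [slope_def_field]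
  exact div_nonneg_of_nonpos (sub_nonpos.2 h1) (sub_nonpos.2 (le_of_lt h2))

theorem mp_sec {f : ℝ → ℝ} {x : ℝ} (hm : IsLocalMax f x) (hc : ContinuousAt f x) :
    deriv (deriv f) x ≤ 0 := by
  by_contra h
  have h1 := isLocalMin_of_deriv_deriv_pos (not_le.1 h) hm.deriv_eq_zero hc
  have e : f =ᶠ[𝓝 x] fun _ => f x := (Filter.Eventually.and hm h1).mono fun _ k =>
    le_antisymm k.1 k.2
  rw [e.deriv.deriv_eq] at h
  simp at h

variable {t₁ t y : ℝ} {F : Fn} {Ω : Set (ℝ × ℝ)}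

/-- At a first touching point with `t > 0`: `F = 0` and `F_t ≥ 0`. -/
theorem mp_T (ht : t ∈ Ioc 0 t₁) (hy : y ∈ Icc (0 : ℝ) 1) (hF : SmAt (Icc 0 t₁) F t y)
    (hΩ : ∀ᶠ s in 𝓝[<] t, (s, y) ∈ Ω) (h0 : 0 ≤ F t y)
    (h1 : ∀ q ∈ Ω, q.1 < t → F q.1 q.2 < 0) : F t y = 0 ∧ 0 ≤ dT (Icc 0 t₁) F t y := by
  have hd : HasDerivWithinAt (fun s => F s y) (dT (Icc 0 t₁) F t y) (Iio t) t :=
    (hF.hasT hy).mono_of_mem_nhdsWithin (Icc_mem_nhdsLT_of_mem ht)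
  have hn : ∀ᶠ s in 𝓝[<] t, F s y ≤ 0 := by
    filter_upwards [hΩ, self_mem_nhdsWithin] with s k1 k2
    exact (h1 (s, y) k1 k2).le
  have e : F t y = 0 := le_antisymm (le_of_tendsto hd.continuousWithinAt hn) h0
  exact ⟨e, mp_left hd (hn.mono fun s hs => hs.trans h0)⟩

/-- At an interior spatial maximum. -/
theorem mp_Y (ht : t ∈ Icc 0 t₁) (h1 : 0 < t₁) (hy : y ∈ Ioo (0 : ℝ) 1)
    (hF : SmAt (Icc 0 t₁) F t y) (hm : ∀ᶠ z in 𝓝 y, F t z ≤ F t y) :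
    dY F t y = 0 ∧ dY (dY F) t y ≤ 0 ∧ dX F t y = 0 ∧ dX (dX F) t y ≤ 0 ∧ XX F t y = 0 ∧
      XX (XX F) t y ≤ 0 := by
  have hy' := Ioo_subset_Icc_self hy
  have hN : Icc (0 : ℝ) 1 ∈ 𝓝 y := Icc_mem_nhds hy.1 hy.2
  have d1 : HasDerivAt (F t) (dY F t y) y := (hF.hasY ht).hasDerivAt hN
  have d2 : HasDerivWithinAt (dY F t) (dY (dY F) t y) (Icc 0 1) y :=
    (hF.dY (ti_Icc h1) ht hy').hasY ht
  have e1 : dY F t y = 0 := IsLocalMax.hasDerivAt_eq_zero hm d1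
  have e2 : dY F t =ᶠ[𝓝 y] deriv (F t) := by
    filter_upwards [Ioo_mem_nhds hy.1 hy.2] with z hz
    exact derivWithin_of_mem_nhds (Icc_mem_nhds hz.1 hz.2)
  have e3 : dY (dY F) t y ≤ 0 := by
    rw [← (d2.hasDerivAt hN).deriv, e2.deriv_eq]
    exact mp_sec hm d1.continuousAt
  have p1 : 0 ≤ 2 * (y * (1 - y)) := by
    have := mul_pos hy.1 (sub_pos.2 hy.2)
    linarith
  have c1 : HasDerivAt (fun z : ℝ => 2 * (z * (1 - z))) (2 * (1 * (1 - y) + y * (0 - 1))) y :=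
    ((hasDerivAt_id' y).mul ((hasDerivAt_const y (1 : ℝ)).sub (hasDerivAt_id' y))).const_mul 2
  have e4 : dY (dX F) t y = _ := dY_eq hy' (c1.hasDerivWithinAt.mul d2)
  have e5 : dY (XX F) t y = _ := dY_eq hy' ((hasDerivWithinAt_id y _).mul d2)
  refine ⟨e1, e3, by rw [dX, e1, mul_zero], ?_, by rw [XX, e1, mul_zero], ?_⟩
  · rw [dX, e4, e1, mul_zero, zero_add]
    exact mul_nonpos_of_nonneg_of_nonpos p1 (mul_nonpos_of_nonneg_of_nonpos p1 e3)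
  · rw [XX, e5, e1, mul_zero, zero_add]
    exact mul_nonpos_of_nonneg_of_nonpos hy.1.le (mul_nonpos_of_nonneg_of_nonpos hy.1.le e3)

/-- At a spatial maximum at the right end point. -/
theorem mp_one (ht : t ∈ Icc 0 t₁) (hF : SmAt (Icc 0 t₁) F t 1)
    (hm : ∀ᶠ z in 𝓝[<] (1 : ℝ), F t z ≤ F t 1) : 0 ≤ dY F t 1 :=
  mp_left ((hF.hasY ht).mono_of_mem_nhdsWithin (Icc_mem_nhdsLT zero_lt_one)) hm

/-- The form used with `𝒫`. -/
theorem mp_pop (S : St) (ht : t ∈ Ioc 0 t₁) (hy : y ∈ Ioo (0 : ℝ) 1) (hF : SmAt (Icc 0 t₁) F t y)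
    (hΩ : Ω ∈ 𝓝[Icc 0 t₁ ×ˢ Icc 0 1] (t, y)) (h0 : 0 ≤ F t y)
    (h1 : ∀ q ∈ Ω, q.1 < t → F q.1 q.2 < 0) (h2 : ∀ q ∈ Ω, q.1 = t → F q.1 q.2 ≤ F t y) :
    F t y = 0 ∧ dX F t y = 0 ∧ 0 ≤ S.Pop (Icc 0 t₁) F t y := by
  have hy' := Ioo_subset_Icc_self hy
  have ht' := Ioc_subset_Icc_self ht
  have a1 : Tendsto (fun s : ℝ => ((s, y) : ℝ × ℝ)) (𝓝[<] t) (𝓝[Icc 0 t₁ ×ˢ Icc 0 1] (t, y)) := by
    refine tendsto_nhdsWithin_iff.2 ⟨?_, ?_⟩
    · exact ((continuous_id.prodMk continuous_const).tendsto t).mono_left nhdsWithin_le_nhds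
    · filter_upwards [Icc_mem_nhdsLT_of_mem ht] with s hs
      exact ⟨hs, hy'⟩
  have a2 : Tendsto (fun z : ℝ => ((t, z) : ℝ × ℝ)) (𝓝 y) (𝓝[Icc 0 t₁ ×ˢ Icc 0 1] (t, y)) := by
    refine tendsto_nhdsWithin_iff.2 ⟨(continuous_const.prodMk continuous_id).tendsto y, ?_⟩
    filter_upwards [Icc_mem_nhds hy.1 hy.2] with z hz
    exact ⟨ht', hz⟩
  obtain ⟨b1, b2⟩ := mp_T ht hy' hF (a1.eventually hΩ) h0 h1
  obtain ⟨-, -, b3, b4, -⟩ := mp_Y ht' (ht.1.trans_le ht.2) hy hF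
    ((a2.eventually hΩ).mono fun z hz => h2 (t, z) hz rfl)
  refine ⟨b1, b3, ?_⟩
  have p1 : 0 ≤ S.f2 t y := mul_nonneg (mul_pos hy.1 (sub_pos.2 hy.2)).le (exp_pos _).le
  have p2 := mul_nonneg p1 b2
  simp only [St.Pop, b3, mul_zero, sub_zero]
  linarith

theorem mp_cmp {I : Set ℝ} {g G : Fn} {a b : ℝ} (c : ℝ) (ht : t ∈ I) (ha : 0 ≤ a) (hab : a ≤ b)
    (hb : b < 1) (cg : ContinuousOn (g t) (Icc a b)) (cG : ContinuousOn (G t) (Icc a b))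
    (hg : ∀ z ∈ Ioo a b, SmAt I g t z) (hG : ∀ z ∈ Ioo a b, SmAt I G t z)
    (h : ∀ z ∈ Ioo a b, c * dX g t z ≤ dX G t z) : c * (g t b - g t a) ≤ G t b - G t a := by
  have h1 : MonotoneOn (fun z => G t z - c * g t z) (Icc a b) := by
    refine monotoneOn_of_hasDerivWithinAt_nonneg (f' := fun z => dY G t z - c * dY g t z)
      (convex_Icc a b) (cG.sub (continuousOn_const.mul cg)) (fun z hz => ?_) fun z hz => ?_
    · rw [interior_Icc] at hz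
      have hN : Icc (0 : ℝ) 1 ∈ 𝓝 z := Icc_mem_nhds (ha.trans_lt hz.1) (hz.2.trans hb)
      exact ((((hG z hz).hasY ht).hasDerivAt hN).sub
        ((((hg z hz).hasY ht).hasDerivAt hN).const_mul c)).hasDerivWithinAt
    · rw [interior_Icc] at hz
      have p1 : 0 < 2 * (z * (1 - z)) := by
        have := mul_pos (ha.trans_lt hz.1) (sub_pos.2 (hz.2.trans hb))
        linarith
      have p2 := h z hz
      simp only [dX] at p2
      refine nonneg_of_mul_nonneg_right ?_ p1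
      linarith
  have h2 := h1 (left_mem_Icc.2 hab) (right_mem_Icc.2 hab) hab
  simp only at h2
  linarith

/-- Monotone comparison: `g' ≤ G'` on `(a, b)`. -/
theorem cmp_le {I : Set ℝ} {g G : Fn} {a b : ℝ} (ht : t ∈ I) (ha : 0 ≤ a) (hab : a ≤ b) (hb : b < 1)
    (cg : ContinuousOn (g t) (Icc a b)) (cG : ContinuousOn (G t) (Icc a b))
    (hg : ∀ z ∈ Ioo a b, SmAt I g t z) (hG : ∀ z ∈ Ioo a b, SmAt I G t z)
    (h : ∀ z ∈ Ioo a b, dX g t z ≤ dX G t z) : g t b - g t a ≤ G t b - G t a := by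
  have h1 := mp_cmp 1 ht ha hab hb cg cG hg hG fun z hz => by simpa using h z hz
  linarith

theorem cmp_abs {I : Set ℝ} {g G : Fn} {a b : ℝ} (ht : t ∈ I) (ha : 0 ≤ a) (hab : a ≤ b) (hb : b < 1)
    (cg : ContinuousOn (g t) (Icc a b)) (cG : ContinuousOn (G t) (Icc a b))
    (hg : ∀ z ∈ Ioo a b, SmAt I g t z) (hG : ∀ z ∈ Ioo a b, SmAt I G t z)
    (h : ∀ z ∈ Ioo a b, |dX g t z| ≤ dX G t z) : |g t b - g t a| ≤ G t b - G t a := by
  have h1 := cmp_le ht ha hab hb cg cG hg hG fun z hz => (le_abs_self _).trans (h z hz)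
  have h2 := mp_cmp (-1) ht ha hab hb cg cG hg hG fun z hz => by
    linarith [neg_le_abs (dX g t z), h z hz]
  exact abs_le.2 ⟨by linarith, h1⟩

end Vale.Agent.P244
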