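import Vale.Agent.P244.Kit.SmJ

/-!
Kit Sy: symbol classes for families of functions of one variable, with constants uniform in the
family.  In applications the index `i : ι` is a pair (solution with all its hypotheses, time), and
`dl cf (u t) = dX u t` (`cf y = 2 * (y * (1 - y))`) or `XX u t` (`cf y = y`) by `rfl`.
`N ≥ 1` is an extra weight allowed for the top derivative (`N = 1`: none).
Plan: inductions on `n` generalising the functions; Leibniz rule on `J i` and `Sy.congr`.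
`mul`: `δ (g g') = δ g * g' + g * δ g'`; prove `mul_top` first (induction on `n`, using `Sy.pred`),
then `mul`.  `inv`: `δ g⁻¹ = -δ g * g⁻¹ * g⁻¹`.  `of_log`: induction on `n`.
-/

namespace Vale.Agent.P244

open scoped ContDiff Topology
open Set Filter Real

noncomputable section

/-- The derivation `cf ∂_y`. -/
def dl (cf g : ℝ → ℝ) : ℝ → ℝ := fun y => cf y * derivWithin g (Icc 0 1) y

/-- A family of domains: smoothness on `J i`, bounds on `Ω i`. -/
structure Ctx (ι : Type) where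
  cf : ℝ → ℝ
  J : ι → Set ℝ
  Ω : ι → Set ℝ
  N : ι → ℝ → ℝ
  sm : ContDiff ℝ ∞ cf
  ro : ∀ i, RO (J i)
  sub : ∀ i, Ω i ⊆ J i
  one : ∀ i, ∀ y ∈ Ω i, 1 ≤ N i y

namespace Ctx

variable {ι : Type} (c : Ctx ι)

def Smo (g : ι → ℝ → ℝ) : Prop := ∀ i, ∀ y ∈ c.J i, ContDiffWithinAt ℝ ∞ (g i) (Icc 0 1) y

def Bd (w g : ι → ℝ → ℝ) : Prop := ∃ C, 0 ≤ C ∧ ∀ i, ∀ y ∈ c.Ω i, |g i y| ≤ C * |w i y|

def D (g : ι → ℝ → ℝ) : ι → ℝ → ℝ := fun i => dl c.cf (g i)

/-- Derivatives of order `< n` are `O(w)`, the derivative of order `n` is `O(w N)`. -/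
def Sy0 (w : ι → ℝ → ℝ) : ℕ → (ι → ℝ → ℝ) → Prop
  | 0, g => c.Bd (fun i y => w i y * c.N i y) g
  | n + 1, g => c.Bd w g ∧ Sy0 w n (c.D g)

def Sy (n : ℕ) (w g : ι → ℝ → ℝ) : Prop := c.Smo g ∧ c.Sy0 w n g

variable {c} {n : ℕ} {w w' g g' : ι → ℝ → ℝ}

theorem Bd.refl' (c : Ctx ι) (w : ι → ℝ → ℝ) : c.Bd w w :=
  ⟨1, zero_le_one, fun _ _ _ => (one_mul _).ge⟩

theorem Bd.trans' {u : ι → ℝ → ℝ} (h : c.Bd w g) (h' : c.Bd u w) : c.Bd u g := by
  obtain ⟨C, C0, h⟩ := h
  obtain ⟨C', C0', h'⟩ := h'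
  refine ⟨C * C', mul_nonneg C0 C0', fun i y hy => (h i y hy).trans ?_⟩
  rw [mul_assoc]
  exact mul_le_mul_of_nonneg_left (h' i y hy) C0

theorem Bd.congr' (h : c.Bd w g) (e : ∀ i, ∀ y ∈ c.Ω i, g' i y = g i y)
    (e' : ∀ i, ∀ y ∈ c.Ω i, w' i y = w i y) : c.Bd w' g' := by
  obtain ⟨C, C0, h⟩ := h
  exact ⟨C, C0, fun i y hy => by rw [e i y hy, e' i y hy]; exact h i y hy⟩

theorem Bd.add' (h : c.Bd w g) (h' : c.Bd w g') : c.Bd w fun i y => g i y + g' i y := by
  obtain ⟨C, C0, h⟩ := h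
  obtain ⟨C', C0', h'⟩ := h'
  refine ⟨C + C', add_nonneg C0 C0', fun i y hy => (abs_add_le _ _).trans ?_⟩
  rw [add_mul]
  exact add_le_add (h i y hy) (h' i y hy)

theorem Bd.mul' (h : c.Bd w g) (h' : c.Bd w' g') :
    c.Bd (fun i y => w i y * w' i y) fun i y => g i y * g' i y := by
  obtain ⟨C, C0, h⟩ := h
  obtain ⟨C', C0', h'⟩ := h'
  refine ⟨C * C', mul_nonneg C0 C0', fun i y hy => ?_⟩
  rw [abs_mul, abs_mul, mul_mul_mul_comm]
  exact mul_le_mul (h i y hy) (h' i y hy) (abs_nonneg _) (mul_nonneg C0 (abs_nonneg _))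

theorem Bd.cmul' (h : c.Bd w g) (a : ℝ) : c.Bd w fun i y => a * g i y := by
  obtain ⟨C, C0, h⟩ := h
  refine ⟨|a| * C, mul_nonneg (abs_nonneg a) C0, fun i y hy => ?_⟩
  rw [abs_mul, mul_assoc]
  exact mul_le_mul_of_nonneg_left (h i y hy) (abs_nonneg a)

theorem Bd.toN (h : c.Bd w g) : c.Bd (fun i y => w i y * c.N i y) g := by
  refine h.trans' ⟨1, zero_le_one, fun i y hy => ?_⟩
  rw [one_mul, abs_mul]
  exact le_mul_of_one_le_right (abs_nonneg _) ((c.one i y hy).trans (le_abs_self _))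

theorem Smo.diff (h : c.Smo g) {i : ι} {y : ℝ} (hy : y ∈ c.J i) :
    DifferentiableWithinAt ℝ (g i) (Icc 0 1) y := (h i y hy).differentiableWithinAt (by simp)

theorem D_congr (e : ∀ i, EqOn (g' i) (g i) (c.J i)) (i : ι) :
    EqOn (c.D g' i) (c.D g i) (c.J i) := fun y hy => by
  have h : g' i =ᶠ[𝓝[Icc 0 1] y] g i := mem_of_superset (c.ro i y hy).2 (e i)
  exact congrArg (c.cf y * ·) (h.derivWithin_eq (e i hy))

theorem D_mul (h : c.Smo g) (h' : c.Smo g') (i : ι) :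
    EqOn (c.D (fun i y => g i y * g' i y) i)
      (fun y => c.D g i y * g' i y + g i y * c.D g' i y) (c.J i) := fun y hy => by
  simp only [Ctx.D, dl]
  rw [derivWithin_fun_mul (h.diff hy) (h'.diff hy)]
  ring

theorem Smo.D (h : c.Smo g) : c.Smo (c.D g) := fun i y hy =>
  c.sm.contDiffAt.contDiffWithinAt.mul
    ((h i y hy).derivWithin (uniqueDiffOn_Icc zero_lt_one) le_rfl (c.ro i y hy).1)

theorem Sy.D (h : c.Sy (n + 1) w g) : c.Sy n w (c.D g) := ⟨h.1.D, h.2.2⟩

theorem Sy.bd (h : c.Sy (n + 1) w g) : c.Bd w g := h.2.1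

theorem Sy.top (h : c.Sy 0 w g) : c.Bd (fun i y => w i y * c.N i y) g := h.2

theorem sy_succ (hs : c.Smo g) (h0 : c.Bd w g) (h1 : c.Sy n w (c.D g)) : c.Sy (n + 1) w g :=
  ⟨hs, h0, h1.2⟩

theorem Sy.pred (h : c.Sy (n + 1) w g) : c.Sy n w g := by
  induction n generalizing g with
  | zero => exact ⟨h.1, h.bd.toN⟩
  | succ n ih => exact sy_succ h.1 h.bd (ih h.D)

theorem Sy.of_le {m : ℕ} (h : c.Sy n w g) (hm : m ≤ n) : c.Sy m w g := by
  induction n, hm using Nat.le_induction with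
  | base => exact h
  | succ n _ ih => exact ih h.pred

theorem Sy.congr (h : c.Sy n w g) (e : ∀ i, EqOn (g' i) (g i) (c.J i)) : c.Sy n w g' := by
  induction n generalizing g g' with
  | zero =>
    exact ⟨fun i y hy => (h.1 i y hy).congr_of_eventuallyEq
      (mem_of_superset (c.ro i y hy).2 (e i)) (e i hy),
      h.top.congr' (fun i y hy => e i (c.sub i hy)) fun _ _ _ => rfl⟩
  | succ n ih =>
    exact sy_succ (ih h.pred e).1 (h.bd.congr' (fun i y hy => e i (c.sub i hy)) fun _ _ _ => rfl)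
      (ih h.D (D_congr e))

theorem Sy.mono (h : c.Sy n w g) (hw : c.Bd w' w) : c.Sy n w' g := by
  induction n generalizing g with
  | zero => exact ⟨h.1, h.top.trans' (hw.mul' (Bd.refl' c c.N))⟩
  | succ n ih => exact sy_succ h.1 (h.bd.trans' hw) (ih h.D)

theorem Sy.add (h : c.Sy n w g) (h' : c.Sy n w g') : c.Sy n w (fun i y => g i y + g' i y) := by
  induction n generalizing g g' with
  | zero => exact ⟨fun i y hy => (h.1 i y hy).add (h'.1 i y hy), h.top.add' h'.top⟩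
  | succ n ih =>
    refine sy_succ (ih h.pred h'.pred).1 (h.bd.add' h'.bd) ((ih h.D h'.D).congr fun i y hy => ?_)
    simp only [Ctx.D, dl]
    rw [derivWithin_fun_add (h.1.diff hy) (h'.1.diff hy)]
    ring

theorem Sy.cmul' (h : c.Sy n w g) (a : ℝ) : c.Sy n w (fun i y => a * g i y) := by
  induction n generalizing g with
  | zero => exact ⟨fun i y hy => contDiffWithinAt_const.mul (h.1 i y hy), h.top.cmul' a⟩
  | succ n ih =>
    refine sy_succ (ih h.pred).1 (h.bd.cmul' a) ((ih h.D).congr fun i y hy => ?_)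
    simp only [Ctx.D, dl]
    rw [derivWithin_const_mul a (h.1.diff hy)]
    ring

theorem Sy.neg (h : c.Sy n w g) : c.Sy n w (fun i y => -g i y) :=
  (h.cmul' (-1)).congr fun _ _ _ => (neg_one_mul _).symm

theorem Sy.sub (h : c.Sy n w g) (h' : c.Sy n w g') : c.Sy n w (fun i y => g i y - g' i y) :=
  (h.add h'.neg).congr fun _ _ _ => sub_eq_add_neg _ _

theorem Sy.cmul (h : c.Sy n w g) (a : ℝ) : c.Sy n w (fun i y => a * g i y) :=
  h.cmul' a

/-- Functions constant in `y`. -/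
theorem sy_const (a : ι → ℝ) (h : c.Bd w fun i _ => a i) : c.Sy n w (fun i _ => a i) := by
  have hD : ∀ a : ι → ℝ, c.D (fun i _ => a i) = fun _ _ => 0 := fun a => by
    funext i y
    simp [Ctx.D, dl]
  have h0 : ∀ w : ι → ℝ → ℝ, c.Bd w fun _ _ => 0 := fun w =>
    ⟨0, le_rfl, fun _ _ _ => by simp⟩
  induction n generalizing a with
  | zero => exact ⟨fun _ _ _ => contDiffWithinAt_const, h.toN⟩
  | succ n ih =>
    refine sy_succ (fun _ _ _ => contDiffWithinAt_const) h ?_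
    rw [hD]
    exact ih (fun _ => 0) (h0 w)

theorem Sy.mul_top (h : c.Sy (n + 1) w g) (h' : c.Sy n w' g') :
    c.Sy n (fun i y => w i y * w' i y) (fun i y => g i y * g' i y) := by
  induction n generalizing g g' with
  | zero =>
    exact ⟨fun i y hy => (h.1 i y hy).mul (h'.1 i y hy),
      (h.bd.mul' h'.top).congr' (fun _ _ _ => rfl) fun _ _ _ => mul_assoc _ _ _⟩
  | succ n ih =>
    exact sy_succ (ih h.pred h'.pred).1 (h.bd.mul' h'.bd)
      (((ih h.D h'.pred).add (ih h.pred h'.D)).congr (D_mul h.1 h'.1))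

theorem Sy.mul (h : c.Sy (n + 1) w g) (h' : c.Sy (n + 1) w' g') :
    c.Sy (n + 1) (fun i y => w i y * w' i y) (fun i y => g i y * g' i y) := by
  have h1 : c.Sy n (fun i y => w i y * w' i y) (fun i y => c.D g i y * g' i y) :=
    ((h'.mul_top h.D).mono ((Bd.refl' c _).congr' (fun _ _ _ => rfl)
      fun _ _ _ => mul_comm _ _)).congr fun _ _ _ => mul_comm _ _
  exact sy_succ (h.mul_top h'.pred).1 (h.bd.mul' h'.bd)
    ((h1.add (h.mul_top h'.D)).congr (D_mul h.1 h'.1))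

/-- Without top weight the product rule holds at every level. -/
theorem Sy.mul_one (hN : ∀ i y, c.N i y = 1) (h : c.Sy n w g) (h' : c.Sy n w' g') :
    c.Sy n (fun i y => w i y * w' i y) (fun i y => g i y * g' i y) := by
  cases n with
  | zero =>
    refine ⟨fun i y hy => (h.1 i y hy).mul (h'.1 i y hy),
      (h.top.mul' h'.top).congr' (fun _ _ _ => rfl) fun i y _ => ?_⟩
    simp only [hN, mul_one]
  | succ n => exact h.mul h'

theorem Sy.inv (h : c.Sy (n + 1) w g) (h0 : ∀ i, ∀ y ∈ c.J i, g i y ≠ 0) (hw : c.Bd g w)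
    (hw0 : ∀ i, ∀ y ∈ c.Ω i, w i y ≠ 0) :
    c.Sy (n + 1) (fun i y => (w i y)⁻¹) (fun i y => (g i y)⁻¹) := by
  have hs : c.Smo fun i y => (g i y)⁻¹ := fun i y hy => (h.1 i y hy).inv (h0 i y hy)
  have hb : c.Bd (fun i y => (w i y)⁻¹) fun i y => (g i y)⁻¹ := by
    obtain ⟨C, C0, hC⟩ := hw
    refine ⟨C, C0, fun i y hy => ?_⟩
    have a1 := abs_pos.2 (hw0 i y hy)
    have a2 := abs_pos.2 (h0 i y (c.sub i hy))
    rw [abs_inv, abs_inv, ← div_eq_mul_inv, le_div_iff₀ a1, inv_mul_le_iff₀ a2, mul_comm]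
    exact hC i y hy
  have hD : ∀ i, EqOn (c.D (fun i y => (g i y)⁻¹) i)
      (fun y => -(c.D g i y * (g i y)⁻¹ * (g i y)⁻¹)) (c.J i) := fun i y hy => by
    simp only [Ctx.D, dl]
    rw [derivWithin_fun_inv' (h.1.diff hy) (h0 i y hy)]
    ring
  refine sy_succ hs hb (Sy.congr (Sy.neg ?_) hD)
  induction n with
  | zero =>
    refine ⟨fun i y hy => ((h.1.D i y hy).mul (hs i y hy)).mul (hs i y hy),
      ((h.D.top.mul' hb).mul' hb).congr' (fun _ _ _ => rfl) fun i y hy => ?_⟩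
    have := hw0 i y hy
    field_simp
  | succ n ih =>
    have h1 := sy_succ hs hb (Sy.congr (Sy.neg (ih h.pred)) hD)
    refine ((h.D.mul h1).mul h1).mono ((Bd.refl' c _).congr' (fun _ _ _ => rfl) fun i y hy => ?_)
    have := hw0 i y hy
    field_simp

/-- If the logarithmic derivative is a symbol of weight one then `g` is a symbol of weight `g`. -/
theorem sy_of_log {L : ι → ℝ → ℝ} (hs : c.Smo g) (hL : c.Sy n (fun _ _ => 1) L)
    (e : ∀ i, ∀ y ∈ c.J i, c.D g i y = L i y * g i y) : c.Sy (n + 1) g g := by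
  refine sy_succ hs (Bd.refl' c g) (Sy.congr ?_ e)
  induction n with
  | zero =>
    refine ⟨fun i y hy => (hL.1 i y hy).mul (hs i y hy),
      (hL.top.mul' (Bd.refl' c g)).congr' (fun _ _ _ => rfl) fun i y _ => ?_⟩
    ring
  | succ n ih =>
    have h1 := sy_succ hs (Bd.refl' c g) (Sy.congr (ih hL.pred) e)
    exact (hL.mul h1).mono ((Bd.refl' c g).congr' (fun _ _ _ => one_mul _) fun _ _ _ => rfl)

theorem Sy.iter (h : c.Sy n w g) {k : ℕ} (hk : k < n) : c.Bd w (c.D^[k] g) := by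
  induction k generalizing n g with
  | zero =>
    obtain ⟨m, rfl⟩ := Nat.exists_eq_succ_of_ne_zero hk.ne'
    exact h.bd
  | succ k ih =>
    obtain ⟨m, rfl⟩ := Nat.exists_eq_succ_of_ne_zero (Nat.ne_zero_of_lt hk)
    exact ih h.D (Nat.lt_of_succ_lt_succ hk)

theorem Sy.iter_top (h : c.Sy n w g) : c.Bd (fun i y => w i y * c.N i y) (c.D^[n] g) := by
  induction n generalizing g with
  | zero => exact h.top
  | succ n ih => exact ih h.D

theorem sy_of_iter (hs : c.Smo g) (h : ∀ k < n, c.Bd w (c.D^[k] g))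
    (ht : c.Bd (fun i y => w i y * c.N i y) (c.D^[n] g)) : c.Sy n w g := by
  induction n generalizing g with
  | zero => exact ⟨hs, ht⟩
  | succ n ih =>
    exact sy_succ hs (h 0 n.succ_pos) (ih hs.D (fun k hk => h (k + 1) (Nat.succ_lt_succ hk)) ht)

/-- Polynomials in `y` are symbols of weight one. -/
theorem sy_poly {φ : ℝ → ℝ} (hφ : ContDiff ℝ ∞ φ) : c.Sy n (fun _ _ => 1) (fun _ y => φ y) := by
  have hb : ∀ {φ : ℝ → ℝ}, ContDiff ℝ ∞ φ → c.Bd (fun _ _ => 1) (fun _ y => φ y) := fun hφ => by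
    obtain ⟨C, hC⟩ := isCompact_Icc.exists_bound_of_continuousOn
      (hφ.continuous.continuousOn (s := Icc (0 : ℝ) 1))
    refine ⟨max C 0, le_max_right _ _, fun i y hy => ?_⟩
    rw [abs_one, mul_one]
    exact (hC y (c.ro i y (c.sub i hy)).1).trans (le_max_left _ _)
  induction n generalizing φ with
  | zero => exact ⟨fun _ _ _ => hφ.contDiffAt.contDiffWithinAt, (hb hφ).toN⟩
  | succ n ih =>
    obtain ⟨d1, d2⟩ := contDiff_infty_iff_deriv.1 hφ
    refine sy_succ (fun _ _ _ => hφ.contDiffAt.contDiffWithinAt) (hb hφ)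
      ((ih (c.sm.mul d2)).congr fun i y hy => ?_)
    exact congrArg (c.cf y * ·)
      ((d1 y).derivWithin (uniqueDiffOn_Icc zero_lt_one y (c.ro i y hy).1))

end Ctx

theorem dX_eq_dl (u : Fn) (t : ℝ) : dX u t = dl (fun y => 2 * (y * (1 - y))) (u t) := rfl

theorem XX_eq_dl (u : Fn) (t : ℝ) : XX u t = dl (fun y => y) (u t) := rfl

theorem dX_iter_eq_dl (u : Fn) (t : ℝ) (k : ℕ) :
    dX^[k] u t = (dl fun y => 2 * (y * (1 - y)))^[k] (u t) := by
  induction k with
  | zero => rfl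
  | succ k ih => rw [Function.iterate_succ_apply', Function.iterate_succ_apply', dX_eq_dl, ih]

theorem XX_iter_eq_dl (u : Fn) (t : ℝ) (k : ℕ) : XX^[k] u t = (dl fun y => y)^[k] (u t) := by
  induction k with
  | zero => rfl
  | succ k ih => rw [Function.iterate_succ_apply', Function.iterate_succ_apply', XX_eq_dl, ih]

theorem Ctx.D_iter {ι : Type} (c : Ctx ι) (g : ι → ℝ → ℝ) (k : ℕ) (i : ι) :
    c.D^[k] g i = (dl c.cf)^[k] (g i) := by
  induction k with
  | zero => rfl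
  | succ k ih => rw [Function.iterate_succ_apply', Function.iterate_succ_apply', Ctx.D, ih]

end

end Vale.Agent.P244
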