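import Mathlib

/-!
Kit PD: partial derivatives of class `C^k` on a product of intervals give class `C^{k+1}`.
Plan: `u (s, z) - u (t, y) = [u (s, z) - u (t, z)] + [u (t, z) - u (t, y)]`; mean value
inequality on the convex sets `I`, `J` (`Convex.norm_image_sub_le_of_norm_hasDerivWithin_le`
applied to `s ↦ u (s, z) - ut p * s`) and continuity of `ut`, `uy` give `HasFDerivWithinAt u
(ut p • fst + uy p • snd) (I ×ˢ J) p`; then `contDiffOn_succ_iff_hasFDerivWithinAt` or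
`contDiffOn_succ_iff_fderivWithin` (`UniqueDiffOn.prod`).
-/

namespace Vale.Agent.P244

open Set

theorem pd_hasFDeriv {I J : Set ℝ} (cI : Convex ℝ I) (cJ : Convex ℝ J) {u ut uy : ℝ × ℝ → ℝ}
    (ht : ∀ p ∈ I ×ˢ J, HasDerivWithinAt (fun s => u (s, p.2)) (ut p) I p.1)
    (hy : ∀ p ∈ I ×ˢ J, HasDerivWithinAt (fun z => u (p.1, z)) (uy p) J p.2)
    (h1 : ContinuousOn ut (I ×ˢ J)) (h2 : ContinuousOn uy (I ×ˢ J)) :
    ∀ p ∈ I ×ˢ J, HasFDerivWithinAt u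
      (ut p • ContinuousLinearMap.fst ℝ ℝ ℝ + uy p • ContinuousLinearMap.snd ℝ ℝ ℝ)
      (I ×ˢ J) p := by
  rintro ⟨t, y⟩ hp
  rw [hasFDerivWithinAt_iff_isLittleO, Asymptotics.isLittleO_iff]
  intro ε hε
  have hε2 : 0 < ε / 2 := by linarith
  obtain ⟨δ, hδ, hc⟩ := Metric.continuousWithinAt_iff.1 (h1 _ hp) (ε / 2) hε2
  have hB := (Asymptotics.isLittleO_iff.1
    (hasDerivWithinAt_iff_isLittleO.1 (hy _ hp))) hε2
  have hT : Filter.Tendsto (Prod.snd : ℝ × ℝ → ℝ) (nhdsWithin (t, y) (I ×ˢ J))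
      (nhdsWithin y J) :=
    (continuous_snd.continuousWithinAt (x := (t, y))).tendsto_nhdsWithin fun _ h => h.2
  filter_upwards [hT.eventually hB, self_mem_nhdsWithin,
    mem_nhdsWithin_of_mem_nhds (Metric.ball_mem_nhds (t, y) hδ)] with q hq hqm hqb
  obtain ⟨s, z⟩ := q
  rw [Metric.mem_ball, Prod.dist_eq, max_lt_iff] at hqb
  have hA : ‖(u (s, z) - ut (t, y) * s) - (u (t, z) - ut (t, y) * t)‖ ≤ ε / 2 * ‖s - t‖ := by
    refine Convex.norm_image_sub_le_of_norm_hasDerivWithin_le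
      (f := fun σ => u (σ, z) - ut (t, y) * σ) (f' := fun σ => ut (σ, z) - ut (t, y))
      (s := I ∩ Metric.ball t δ) (fun σ hσ => ?_) (fun σ hσ => ?_)
      (cI.inter (convex_ball t δ)) ⟨hp.1, Metric.mem_ball_self hδ⟩ ⟨hqm.1, hqb.1⟩
    · have a1 := (ht (σ, z) ⟨hσ.1, hqm.2⟩).mono (inter_subset_left (t := Metric.ball t δ))
      have a2 : HasDerivWithinAt (fun σ : ℝ => ut (t, y) * σ) (ut (t, y))
          (I ∩ Metric.ball t δ) σ := by
        simpa using (hasDerivWithinAt_id σ (I ∩ Metric.ball t δ)).const_mul (ut (t, y))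
      exact a1.sub a2
    · have := hc (x := (σ, z)) ⟨hσ.1, hqm.2⟩ (by
        rw [Prod.dist_eq, max_lt_iff]; exact ⟨hσ.2, hqb.2⟩)
      rw [dist_eq_norm] at this
      exact this.le
  have n1 : ‖s - t‖ ≤ ‖((s, z) : ℝ × ℝ) - (t, y)‖ := norm_fst_le (((s, z) : ℝ × ℝ) - (t, y))
  have n2 : ‖z - y‖ ≤ ‖((s, z) : ℝ × ℝ) - (t, y)‖ := norm_snd_le (((s, z) : ℝ × ℝ) - (t, y))
  have e : u (s, z) - u (t, y) - (ut (t, y) • ContinuousLinearMap.fst ℝ ℝ ℝ +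
      uy (t, y) • ContinuousLinearMap.snd ℝ ℝ ℝ) ((s, z) - (t, y)) =
      ((u (s, z) - ut (t, y) * s) - (u (t, z) - ut (t, y) * t)) +
        (u (t, z) - u (t, y) - (z - y) • uy (t, y)) := by
    simp
    ring
  rw [e]
  refine (norm_add_le _ _).trans ?_
  have hq' : ‖u (t, z) - u (t, y) - (z - y) • uy (t, y)‖ ≤ ε / 2 * ‖z - y‖ := hq
  nlinarith [mul_le_mul_of_nonneg_left n1 hε2.le, mul_le_mul_of_nonneg_left n2 hε2.le]

theorem pd_succ {I J : Set ℝ} (cI : Convex ℝ I) (cJ : Convex ℝ J) (uI : UniqueDiffOn ℝ I)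
    (uJ : UniqueDiffOn ℝ J) {u ut uy : ℝ × ℝ → ℝ}
    (ht : ∀ p ∈ I ×ˢ J, HasDerivWithinAt (fun s => u (s, p.2)) (ut p) I p.1)
    (hy : ∀ p ∈ I ×ˢ J, HasDerivWithinAt (fun z => u (p.1, z)) (uy p) J p.2) (k : ℕ)
    (h1 : ContDiffOn ℝ k ut (I ×ˢ J)) (h2 : ContDiffOn ℝ k uy (I ×ˢ J)) :
    ContDiffOn ℝ (k + 1 : ℕ) u (I ×ˢ J) := by
  have hU : UniqueDiffOn ℝ (I ×ˢ J) := uI.prod uJ
  have hF := pd_hasFDeriv cI cJ ht hy h1.continuousOn h2.continuousOn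
  rw [Nat.cast_succ, contDiffOn_succ_iff_fderivWithin hU]
  refine ⟨fun p hp => (hF p hp).differentiableWithinAt, by simp, ?_⟩
  refine ContDiffOn.congr ((h1.smul contDiffOn_const).add (h2.smul contDiffOn_const))
    fun p hp => (hF p hp).fderivWithin (hU p hp)

end Vale.Agent.P244
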