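import Vale.Agent.P244.Kit.PD

/-!
Kit PI: primitives with a parameter on a product of intervals keep the class `C^k`.
Plan (`pi_snd`): induction on `k`, generalising `g`.  `k = 0`: continuity (extend `g` by the
projections onto compact subintervals, or a direct uniform continuity estimate).  Step: with
`gt p = fderivWithin ℝ g (I ×ˢ J) p (1, 0)` (class `C^k`), the partial derivatives of the
primitive are `∫ z in a..p.2, gt (p.1, z)` (differentiate under the integral within `I`: mean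
value inequality + uniform continuity of `gt` on compact pieces) and `g p` (fundamental theorem
of calculus within `J`); conclude with `pd_succ`.  `pi_fst` follows by swapping the factors.
-/

namespace Vale.Agent.P244

open scoped ContDiff
open Set

open MeasureTheory intervalIntegral in
theorem pi_ftc {J : Set ℝ} (oJ : J.OrdConnected) {f : ℝ → ℝ} (hf : ContinuousOn f J) {a b : ℝ}
    (ha : a ∈ J) (hb : b ∈ J) : HasDerivWithinAt (fun u => ∫ x in a..u, f x) (f b) J b := by
  have hi : ∀ x ∈ J, ∀ y ∈ J, IntervalIntegrable f volume x y := fun x hx y hy =>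
    (hf.mono (oJ.uIcc_subset hx hy)).intervalIntegrable
  rw [hasDerivWithinAt_iff_isLittleO, Asymptotics.isLittleO_iff]
  intro ε hε
  obtain ⟨δ, hδ, h⟩ := Metric.continuousWithinAt_iff.1 (hf b hb) ε hε
  filter_upwards [self_mem_nhdsWithin, mem_nhdsWithin_of_mem_nhds (Metric.ball_mem_nhds b hδ)]
    with u hu hub
  have e : (∫ x in b..u, f x) - (u - b) • f b = ∫ x in b..u, (f x - f b) := by
    rw [integral_sub (hi b hb u hu) intervalIntegrable_const, intervalIntegral.integral_const]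
  rw [integral_interval_sub_left (hi a ha u hu) (hi a ha b hb), e]
  refine norm_integral_le_of_norm_le_const fun x hx => ?_
  have hx' := uIoc_subset_uIcc hx
  exact (h (oJ.uIcc_subset hb hu hx') ((abs_sub_left_of_mem_uIcc hx').trans_lt hub)).le

theorem pi_cont {I J : Set ℝ} (oJ : J.OrdConnected) {a : ℝ} (ha : a ∈ J) {g : ℝ × ℝ → ℝ}
    (hg : ContinuousOn g (I ×ˢ J)) :
    ContinuousOn (fun p : ℝ × ℝ => ∫ z in a..p.2, g (p.1, z)) (I ×ˢ J) := by
  rw [continuousOn_iff_continuous_domRestrict]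
  let cl : (I ×ˢ J : Set (ℝ × ℝ)) × ℝ → ℝ × ℝ := fun q =>
    (q.1.1.1, max (min a q.1.1.2) (min q.2 (max a q.1.1.2)))
  have hcl : Continuous cl := by fun_prop
  have hm : ∀ q, cl q ∈ I ×ˢ J := fun q => ⟨q.1.2.1,
    oJ.uIcc_subset ha q.1.2.2 ⟨le_max_left _ _, max_le min_le_max (min_le_right _ _)⟩⟩
  have h2 := intervalIntegral.continuous_parametric_intervalIntegral_of_continuous
    (μ := MeasureTheory.volume) (a₀ := a) (f := fun (p : (I ×ˢ J : Set (ℝ × ℝ))) z => g (cl (p, z)))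
    (hg.comp_continuous hcl hm) (s := fun p => p.1.2) (by fun_prop)
  refine h2.congr fun p => intervalIntegral.integral_congr fun z hz => ?_
  have e : max (min a p.1.2) (min z (max a p.1.2)) = z := by
    rw [min_eq_left hz.2, max_eq_right hz.1]
  simp only [cl, e]

open MeasureTheory intervalIntegral in
theorem pi_dt {I J : Set ℝ} (oI : I.OrdConnected) (oJ : J.OrdConnected) {a : ℝ} (ha : a ∈ J)
    {g gt : ℝ × ℝ → ℝ} (hg : ContinuousOn g (I ×ˢ J)) (hgt : ContinuousOn gt (I ×ˢ J))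
    (hd : ∀ p ∈ I ×ˢ J, HasDerivWithinAt (fun s => g (s, p.2)) (gt p) I p.1) {t y : ℝ}
    (ht : t ∈ I) (hy : y ∈ J) :
    HasDerivWithinAt (fun s => ∫ z in a..y, g (s, z)) (∫ z in a..y, gt (t, z)) I t := by
  have sl : ∀ {u : ℝ × ℝ → ℝ}, ContinuousOn u (I ×ˢ J) → ∀ z ∈ J,
      ContinuousOn (fun s => u (s, z)) I := fun hu z hz =>
    hu.comp (by fun_prop) fun s hs => ⟨hs, hz⟩
  have si : ∀ s ∈ I, IntervalIntegrable (fun z => g (s, z)) volume a y := fun s hs =>
    (hg.comp (f := fun z => (s, z)) (by fun_prop)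
      fun z hz => ⟨hs, oJ.uIcc_subset ha hy hz⟩).intervalIntegrable
  have key : ∀ s ∈ I, ∫ z in a..y, g (s, z) =
      (∫ z in a..y, g (t, z)) + ∫ σ in t..s, ∫ z in a..y, gt (σ, z) := by
    intro s hs
    have sub := oI.uIcc_subset ht hs
    have hI : IntegrableOn (Function.uncurry fun σ z => gt (σ, z)) (uIoc t s ×ˢ uIoc a y) :=
      ((hgt.mono (prod_mono sub (oJ.uIcc_subset ha hy))).integrableOn_compact
        (isCompact_uIcc.prod isCompact_uIcc)).mono_set
        (prod_mono uIoc_subset_uIcc uIoc_subset_uIcc)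
    rw [intervalIntegral_intervalIntegral_swap hI, ← sub_eq_iff_eq_add',
      ← integral_sub (si s hs) (si t ht)]
    refine integral_congr fun z hz => ?_
    have hz' := oJ.uIcc_subset ha hy hz
    refine (integral_eq_sub_of_hasDeriv_right (f := fun σ => g (σ, z)) ((sl hg z hz').mono sub)
      (fun x hx => ?_) ((sl hgt z hz').mono sub).intervalIntegrable).symm
    exact ((hd (x, z) ⟨sub (Ioo_subset_Icc_self hx), hz'⟩).hasDerivAt (Filter.mem_of_superset
      (Ioo_mem_nhds hx.1 hx.2) (Ioo_subset_Icc_self.trans sub))).hasDerivWithinAt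
  exact ((pi_ftc oI (sl (pi_cont oJ ha hgt) y hy) ht ht).const_add _).congr key (key t ht)

theorem pi_snd {I J : Set ℝ} (cI : Convex ℝ I) (cJ : Convex ℝ J) (uI : UniqueDiffOn ℝ I)
    (uJ : UniqueDiffOn ℝ J) {a : ℝ} (ha : a ∈ J) (k : ℕ) {g : ℝ × ℝ → ℝ}
    (hg : ContDiffOn ℝ k g (I ×ˢ J)) :
    ContDiffOn ℝ k (fun p : ℝ × ℝ => ∫ z in a..p.2, g (p.1, z)) (I ×ˢ J) := by
  induction k generalizing g with
  | zero => exact contDiffOn_zero.2 (pi_cont cJ.ordConnected ha hg.continuousOn)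
  | succ k ih =>
    have hk : ContDiffOn ℝ k (fun p => fderivWithin ℝ g (I ×ˢ J) p (1, 0)) (I ×ˢ J) :=
      (hg.fderivWithin (uI.prod uJ) (by norm_cast)).clm_apply contDiffOn_const
    have hd : ∀ p ∈ I ×ˢ J, HasDerivWithinAt (fun s => g (s, p.2))
        (fderivWithin ℝ g (I ×ˢ J) p (1, 0)) I p.1 := fun p hp =>
      (hg.differentiableOn (by simp) p hp).hasFDerivWithinAt.comp_hasDerivWithinAt p.1
        ((hasDerivWithinAt_id p.1 I).prodMk (hasDerivWithinAt_const p.1 I p.2))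
        fun s hs => mk_mem_prod hs hp.2
    exact pd_succ cI cJ uI uJ
      (ut := fun p => ∫ z in a..p.2, fderivWithin ℝ g (I ×ˢ J) (p.1, z) (1, 0)) (uy := g)
      (fun p hp => pi_dt cI.ordConnected cJ.ordConnected ha hg.continuousOn hk.continuousOn hd
        hp.1 hp.2)
      (fun p hp => pi_ftc cJ.ordConnected (f := fun z => g (p.1, z))
        (hg.continuousOn.comp (by fun_prop) fun z hz => ⟨hp.1, hz⟩) ha hp.2)
      k (ih hk) (hg.of_le (by norm_cast; omega))

theorem pi_fst {I J : Set ℝ} (cI : Convex ℝ I) (cJ : Convex ℝ J) (uI : UniqueDiffOn ℝ I)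
    (uJ : UniqueDiffOn ℝ J) {a : ℝ} (ha : a ∈ I) (k : ℕ) {g : ℝ × ℝ → ℝ}
    (hg : ContDiffOn ℝ k g (I ×ˢ J)) :
    ContDiffOn ℝ k (fun p : ℝ × ℝ => ∫ s in a..p.1, g (s, p.2)) (I ×ˢ J) := by
  have sw : ContDiff ℝ k (fun p : ℝ × ℝ => (p.2, p.1)) := contDiff_snd.prodMk contDiff_fst
  exact (pi_snd cJ cI uJ uI ha k (hg.comp sw.contDiffOn fun p hp => ⟨hp.2, hp.1⟩)).comp
    sw.contDiffOn fun p hp => ⟨hp.2, hp.1⟩

end Vale.Agent.P244
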