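import Vale.Agent.P244.Defs

/-!
Kit Sm: calculus for functions smooth on `I × [0, 1]`, `I` an interval with interior.
Plan: `dY u p = fderivWithin ℝ U S p (0, 1)`, `dT I u p = fderivWithin ℝ U S p (1, 0)` with
`U = uncurry u`, `S = I ×ˢ Icc 0 1` (`UniqueDiffOn.prod`); smoothness from
`ContDiffOn.fderivWithin`; commutation from `ContDiffWithinAt.isSymmSndFDerivWithinAt`
(`S` is convex with interior, so every point is in the closure of the interior).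
-/

namespace Vale.Agent.P244

open scoped ContDiff Topology
open Set Filter

noncomputable section

/-- The time derivative within `I`. -/
def dT (I : Set ℝ) (u : Fn) : Fn := fun t y => derivWithin (fun s => u s y) I t

/-- A time interval with nonempty interior. -/
structure TI (I : Set ℝ) : Prop where
  conv : Convex ℝ I
  int : (interior I).Nonempty

theorem TI.uniq {I : Set ℝ} (h : TI I) : UniqueDiffOn ℝ I := uniqueDiffOn_convex h.conv h.int

theorem ti_Icc {a b : ℝ} (h : a < b) : TI (Icc a b) :=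
  ⟨convex_Icc a b, by rw [interior_Icc]; exact nonempty_Ioo.2 h⟩

theorem ti_Ico {a b : ℝ} (h : a < b) : TI (Ico a b) :=
  ⟨convex_Ico a b, by rw [interior_Ico]; exact nonempty_Ioo.2 h⟩

variable {I : Set ℝ} {u v : Fn}

theorem Sm.mono {J : Set ℝ} (h : Sm I u) (hJ : J ⊆ I) : Sm J u :=
  ContDiffOn.mono h (prod_mono hJ subset_rfl)

theorem Sm.congr (h : Sm I u) (e : ∀ t ∈ I, ∀ y ∈ Icc (0 : ℝ) 1, v t y = u t y) : Sm I v :=
  ContDiffOn.congr h fun p hp => e p.1 hp.1 p.2 hp.2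

theorem sm_auxY {G : ℝ × ℝ → ℝ} {L : ℝ × ℝ →L[ℝ] ℝ} {t y : ℝ} (ht : t ∈ I)
    (h : HasFDerivWithinAt G L (I ×ˢ Icc 0 1) (t, y)) :
    HasDerivWithinAt (fun z => G (t, z)) (L (0, 1)) (Icc 0 1) y :=
  h.comp_hasDerivWithinAt y (f := fun z : ℝ => ((t, z) : ℝ × ℝ))
    ((hasDerivAt_const y t).prodMk (hasDerivAt_id y)).hasDerivWithinAt fun _ hz => ⟨ht, hz⟩

theorem sm_auxT {G : ℝ × ℝ → ℝ} {L : ℝ × ℝ →L[ℝ] ℝ} {t y : ℝ} (hy : y ∈ Icc (0 : ℝ) 1)
    (h : HasFDerivWithinAt G L (I ×ˢ Icc 0 1) (t, y)) :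
    HasDerivWithinAt (fun s => G (s, y)) (L (1, 0)) I t :=
  h.comp_hasDerivWithinAt t (f := fun s : ℝ => ((s, y) : ℝ × ℝ))
    ((hasDerivAt_id t).prodMk (hasDerivAt_const t y)).hasDerivWithinAt fun _ hs => ⟨hs, hy⟩

theorem sm_uniq (hI : TI I) : UniqueDiffOn ℝ (I ×ˢ Icc (0 : ℝ) 1) :=
  hI.uniq.prod (uniqueDiffOn_Icc zero_lt_one)

theorem sm_fd (h : Sm I u) {t y : ℝ} (ht : t ∈ I) (hy : y ∈ Icc (0 : ℝ) 1) :
    HasFDerivWithinAt (fun p : ℝ × ℝ => u p.1 p.2)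
      (fderivWithin ℝ (fun p : ℝ × ℝ => u p.1 p.2) (I ×ˢ Icc 0 1) (t, y)) (I ×ˢ Icc 0 1) (t, y) :=
  ((ContDiffOn.differentiableOn h (by simp)) (t, y) ⟨ht, hy⟩).hasFDerivWithinAt

theorem Sm.slice (h : Sm I u) {t : ℝ} (ht : t ∈ I) : ContDiffOn ℝ ∞ (u t) (Icc 0 1) := by
  exact ContDiffOn.comp (f := fun z : ℝ => ((t, z) : ℝ × ℝ)) h
    (contDiff_const.prodMk contDiff_id).contDiffOn fun _ hz => ⟨ht, hz⟩

theorem Sm.sliceT (h : Sm I u) {y : ℝ} (hy : y ∈ Icc (0 : ℝ) 1) :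
    ContDiffOn ℝ ∞ (fun s => u s y) I := by
  exact ContDiffOn.comp (f := fun s : ℝ => ((s, y) : ℝ × ℝ)) h
    (contDiff_id.prodMk contDiff_const).contDiffOn fun _ hs => ⟨hs, hy⟩

theorem Sm.hasY (h : Sm I u) {t y : ℝ} (ht : t ∈ I) (hy : y ∈ Icc (0 : ℝ) 1) :
    HasDerivWithinAt (u t) (dY u t y) (Icc 0 1) y := by
  exact (((h.slice ht).differentiableOn (by simp)) y hy).hasDerivWithinAt

theorem Sm.hasY' (h : Sm I u) {t y : ℝ} (ht : t ∈ I) (hy : y ∈ Ioo (0 : ℝ) 1) :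
    HasDerivAt (u t) (dY u t y) y := by
  exact (h.hasY ht (Ioo_subset_Icc_self hy)).hasDerivAt (Icc_mem_nhds hy.1 hy.2)

theorem Sm.hasT (h : Sm I u) {t y : ℝ} (ht : t ∈ I) (hy : y ∈ Icc (0 : ℝ) 1) :
    HasDerivWithinAt (fun s => u s y) (dT I u t y) I t := by
  exact (((h.sliceT hy).differentiableOn (by simp)) t ht).hasDerivWithinAt

theorem dY_eq {t y d : ℝ} (hy : y ∈ Icc (0 : ℝ) 1) (h : HasDerivWithinAt (u t) d (Icc 0 1) y) :
    dY u t y = d := by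
  exact h.derivWithin (uniqueDiffOn_Icc zero_lt_one y hy)

theorem dT_eq (hI : TI I) {t y d : ℝ} (ht : t ∈ I) (h : HasDerivWithinAt (fun s => u s y) d I t) :
    dT I u t y = d := by
  exact h.derivWithin (hI.uniq t ht)

theorem dY_congr {t y : ℝ} (e : EqOn (u t) (v t) (Icc 0 1)) (hy : y ∈ Icc (0 : ℝ) 1) :
    dY u t y = dY v t y := by
  exact derivWithin_congr e (e hy)

theorem dY_iter_congr {t : ℝ} (e : EqOn (u t) (v t) (Icc 0 1)) (m : ℕ) :
    EqOn (dY^[m] u t) (dY^[m] v t) (Icc 0 1) := by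
  induction m with
  | zero => exact e
  | succ m ih =>
    intro y hy
    rw [Function.iterate_succ_apply', Function.iterate_succ_apply']
    exact dY_congr ih hy

theorem Sm.dY (hI : TI I) (h : Sm I u) : Sm I (dY u) := by
  refine ContDiffOn.congr ((ContDiffOn.fderivWithin h (sm_uniq hI) (m := ∞) (by simp)).clm_apply
    (contDiffOn_const (c := ((0, 1) : ℝ × ℝ)))) fun p hp => ?_
  exact dY_eq hp.2 (sm_auxY hp.1 (sm_fd h hp.1 hp.2))

theorem Sm.dY_iter (hI : TI I) (h : Sm I u) (m : ℕ) : Sm I (P244.dY^[m] u) := by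
  induction m with
  | zero => exact h
  | succ m ih =>
    rw [Function.iterate_succ_apply']
    exact ih.dY hI

theorem Sm.dT (hI : TI I) (h : Sm I u) : Sm I (dT I u) := by
  refine ContDiffOn.congr ((ContDiffOn.fderivWithin h (sm_uniq hI) (m := ∞) (by simp)).clm_apply
    (contDiffOn_const (c := ((1, 0) : ℝ × ℝ)))) fun p hp => ?_
  exact dT_eq hI hp.1 (sm_auxT hp.2 (sm_fd h hp.1 hp.2))

theorem Sm.comm (hI : TI I) (h : Sm I u) {t y : ℝ} (ht : t ∈ I) (hy : y ∈ Icc (0 : ℝ) 1) :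
    P244.dT I (P244.dY u) t y = P244.dY (P244.dT I u) t y := by
  set U : ℝ × ℝ → ℝ := fun p => u p.1 p.2 with hU
  have hD := (((ContDiffOn.fderivWithin h (sm_uniq hI) (m := ∞) (by simp)).differentiableOn
    (by simp)) (t, y) ⟨ht, hy⟩).hasFDerivWithinAt
  have hc : Convex ℝ (I ×ˢ Icc (0 : ℝ) 1) := hI.conv.prod (convex_Icc 0 1)
  have hne : (interior (I ×ˢ Icc (0 : ℝ) 1)).Nonempty := by
    rw [interior_prod_eq, interior_Icc]
    exact hI.int.prod (nonempty_Ioo.2 zero_lt_one)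
  have hsym := ContDiffWithinAt.isSymmSndFDerivWithinAt (h (t, y) ⟨ht, hy⟩)
    (by rw [minSmoothness_of_isRCLikeNormedField]; exact ENat.LEInfty.out) (sm_uniq hI)
    (by rw [hc.closure_interior_eq_closure_of_nonempty_interior hne]; exact subset_closure ⟨ht, hy⟩)
    ⟨ht, hy⟩
  have a1 := sm_auxT hy (hD.clm_apply (hasFDerivWithinAt_const ((0, 1) : ℝ × ℝ) (t, y) _))
  have a2 := sm_auxY ht (hD.clm_apply (hasFDerivWithinAt_const ((1, 0) : ℝ × ℝ) (t, y) _))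
  have b1 := dT_eq (u := P244.dY u) hI ht (a1.congr_of_mem
    (fun s hs => dY_eq hy (sm_auxY hs (sm_fd h hs hy))) ht)
  have b2 := dY_eq (u := P244.dT I u) hy (a2.congr_of_mem
    (fun z hz => dT_eq hI ht (sm_auxT hz (sm_fd h ht hz))) hy)
  rw [b1, b2]
  simpa using hsym.eq (1, 0) (0, 1)

/-- Differentiating an evolution equation in `y`. -/
theorem Sm.hasT_dY (hI : TI I) (h : Sm I u) {F : Fn}
    (e : ∀ t ∈ I, ∀ y ∈ Icc (0 : ℝ) 1, HasDerivWithinAt (fun s => u s y) (F t y) I t) :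
    ∀ t ∈ I, ∀ y ∈ Icc (0 : ℝ) 1,
      HasDerivWithinAt (fun s => P244.dY u s y) (P244.dY F t y) I t := by
  intro t ht y hy
  have a1 := (h.dY hI).hasT ht hy
  rw [h.comm hI ht hy, dY_congr (v := F) (fun z hz => dT_eq hI ht (e t ht z hz)) hy] at a1
  exact a1

theorem Sm.cont (h : Sm I u) : ContinuousOn (fun p : ℝ × ℝ => u p.1 p.2) (I ×ˢ Icc 0 1) :=
  ContDiffOn.continuousOn h

theorem IsSol.mono {J : Set ℝ} {A β B : Fn} (h : IsSol I A β B) (hJ : J ⊆ I) : IsSol J A β B :=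
  ⟨h.smA.mono hJ, h.smβ.mono hJ, h.smB.mono hJ,
    fun t ht y hy => (h.eqA t (hJ ht) y hy).mono hJ, fun t ht y hy => (h.eqβ t (hJ ht) y hy).mono hJ,
    fun t ht => h.eqB t (hJ ht), fun t ht => h.one t (hJ ht)⟩

end

end Vale.Agent.P244
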