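import Vale.Agent.P244.Q

/-!
Kit SmJ: calculus for functions smooth on `I × J`, `J` relatively open in `[0, 1]`
(`Icc 0 1`, `Ico 0 1`, `Ioo 0 1`, or a set where a denominator does not vanish).
Plan: as in Kit/Sm, pointwise: `ContDiffWithinAt.fderivWithin_right`, and `dY u q = fderivWithin U S
q (0, 1)` for all `q ∈ I × J`, a neighbourhood of the point within `S = I ×ˢ Icc 0 1`.
The rules for `dX`, `dT`, `Pop` follow from `hasY`, `hasT` and uniqueness of derivatives
(`dY_eq`, `dT_eq`); second derivatives use `dX_congr` on `J`.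
-/

namespace Vale.Agent.P244

open scoped ContDiff Topology
open Set Filter Real

noncomputable section

/-- `J` is relatively open in `[0, 1]`. -/
def RO (J : Set ℝ) : Prop := ∀ y ∈ J, y ∈ Icc (0 : ℝ) 1 ∧ J ∈ 𝓝[Icc 0 1] y

theorem ro_Icc : RO (Icc 0 1) := fun _ hy => ⟨hy, self_mem_nhdsWithin⟩

theorem ro_Ioo : RO (Ioo 0 1) := by
  exact fun y hy => ⟨Ioo_subset_Icc_self hy, mem_nhdsWithin_of_mem_nhds (Ioo_mem_nhds hy.1 hy.2)⟩

theorem ro_Ico : RO (Ico 0 1) := by
  refine fun y hy => ⟨Ico_subset_Icc_self hy, ?_⟩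
  filter_upwards [self_mem_nhdsWithin, mem_nhdsWithin_of_mem_nhds (Iio_mem_nhds hy.2)] with z h1 h2
  exact ⟨h1.1, h2⟩

/-- Smooth at the point `(t, y)` within `I × [0, 1]`. -/
def SmAt (I : Set ℝ) (u : Fn) (t y : ℝ) : Prop :=
  ContDiffWithinAt ℝ ∞ (fun p : ℝ × ℝ => u p.1 p.2) (I ×ˢ Icc 0 1) (t, y)

variable {I : Set ℝ} {u v : Fn} {t y : ℝ}

theorem Sm.smAt (h : Sm I u) (ht : t ∈ I) (hy : y ∈ Icc (0 : ℝ) 1) : SmAt I u t y :=
  h (t, y) ⟨ht, hy⟩

theorem SmAt.slice (h : SmAt I u t y) (ht : t ∈ I) : ContDiffWithinAt ℝ ∞ (u t) (Icc 0 1) y := by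
  exact ContDiffWithinAt.comp y (f := fun z : ℝ => ((t, z) : ℝ × ℝ)) h
    (contDiff_const.prodMk contDiff_id).contDiffWithinAt fun _ hz => ⟨ht, hz⟩

theorem SmAt.hasY (h : SmAt I u t y) (ht : t ∈ I) :
    HasDerivWithinAt (u t) (dY u t y) (Icc 0 1) y := by
  exact ((h.slice ht).differentiableWithinAt (by simp)).hasDerivWithinAt

theorem SmAt.hasT (h : SmAt I u t y) (hy : y ∈ Icc (0 : ℝ) 1) :
    HasDerivWithinAt (fun s => u s y) (dT I u t y) I t := by
  have h1 : ContDiffWithinAt ℝ ∞ (fun s => u s y) I t :=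
    ContDiffWithinAt.comp t (f := fun s : ℝ => ((s, y) : ℝ × ℝ)) h
      (contDiff_id.prodMk contDiff_const).contDiffWithinAt fun _ hs => ⟨hs, hy⟩
  exact (h1.differentiableWithinAt (by simp)).hasDerivWithinAt

theorem SmAt.hasF (h : SmAt I u t y) (hI : TI I) (ht : t ∈ I) (hy : y ∈ Icc (0 : ℝ) 1) :
    HasFDerivWithinAt (fun p : ℝ × ℝ => u p.1 p.2)
      (dT I u t y • ContinuousLinearMap.fst ℝ ℝ ℝ + dY u t y • ContinuousLinearMap.snd ℝ ℝ ℝ)
      (I ×ˢ Icc 0 1) (t, y) := by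
  have h1 := (ContDiffWithinAt.differentiableWithinAt h (by simp)).hasFDerivWithinAt
  have a1 := dY_eq (u := u) hy (sm_auxY ht h1)
  have a2 := dT_eq (u := u) hI ht (sm_auxT hy h1)
  refine h1.congr_fderiv ?_
  ext
  · simp [a2]
  · simp [a1]

theorem smJ_ev (h : SmAt I u t y) : ∀ᶠ p in 𝓝[I ×ˢ Icc 0 1] (t, y),
    HasFDerivWithinAt (fun p : ℝ × ℝ => u p.1 p.2)
      (fderivWithin ℝ (fun p : ℝ × ℝ => u p.1 p.2) (I ×ˢ Icc 0 1) p) (I ×ˢ Icc 0 1) p := by
  have h1 := (ContDiffWithinAt.of_le h (m := 1) (by simp)).eventually (by simp)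
  filter_upwards [nhdsWithin_mono _ (subset_insert _ _) h1] with p hp
  exact (hp.differentiableWithinAt (by simp)).hasFDerivWithinAt

theorem SmAt.dY (h : SmAt I u t y) (hI : TI I) (ht : t ∈ I) (hy : y ∈ Icc (0 : ℝ) 1) :
    SmAt I (dY u) t y := by
  refine ((ContDiffWithinAt.fderivWithin_right h (sm_uniq hI) (m := ∞) (by simp) ⟨ht, hy⟩).clm_apply
    (contDiffWithinAt_const (c := ((0, 1) : ℝ × ℝ)))).congr_of_eventuallyEq_of_mem ?_ ⟨ht, hy⟩
  filter_upwards [smJ_ev h, self_mem_nhdsWithin] with p h1 hp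
  exact dY_eq hp.2 (sm_auxY hp.1 h1)

theorem SmAt.dT (h : SmAt I u t y) (hI : TI I) (ht : t ∈ I) (hy : y ∈ Icc (0 : ℝ) 1) :
    SmAt I (dT I u) t y := by
  refine ((ContDiffWithinAt.fderivWithin_right h (sm_uniq hI) (m := ∞) (by simp) ⟨ht, hy⟩).clm_apply
    (contDiffWithinAt_const (c := ((1, 0) : ℝ × ℝ)))).congr_of_eventuallyEq_of_mem ?_ ⟨ht, hy⟩
  filter_upwards [smJ_ev h, self_mem_nhdsWithin] with p h1 hp
  exact dT_eq hI hp.1 (sm_auxT hp.2 h1)

theorem SmAt.dX (h : SmAt I u t y) (hI : TI I) (ht : t ∈ I) (hy : y ∈ Icc (0 : ℝ) 1) :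
    SmAt I (dX u) t y := by
  exact ContDiffWithinAt.mul (contDiffWithinAt_const.mul (contDiffWithinAt_snd.mul
    (contDiffWithinAt_const.sub contDiffWithinAt_snd))) (h.dY hI ht hy)

theorem SmAt.XX (h : SmAt I u t y) (hI : TI I) (ht : t ∈ I) (hy : y ∈ Icc (0 : ℝ) 1) :
    SmAt I (XX u) t y := by
  exact ContDiffWithinAt.mul contDiffWithinAt_snd (h.dY hI ht hy)

theorem SmAt.comm (h : SmAt I u t y) (hI : TI I) (ht : t ∈ I) (hy : y ∈ Icc (0 : ℝ) 1) :
    P244.dT I (P244.dY u) t y = P244.dY (P244.dT I u) t y := by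
  set U : ℝ × ℝ → ℝ := fun p => u p.1 p.2 with hU
  have hD := ((ContDiffWithinAt.fderivWithin_right h (sm_uniq hI) (m := ∞) (by simp)
    ⟨ht, hy⟩).differentiableWithinAt (by simp)).hasFDerivWithinAt
  have hc : Convex ℝ (I ×ˢ Icc (0 : ℝ) 1) := hI.conv.prod (convex_Icc 0 1)
  have hne : (interior (I ×ˢ Icc (0 : ℝ) 1)).Nonempty := by
    rw [interior_prod_eq, interior_Icc]
    exact hI.int.prod (nonempty_Ioo.2 zero_lt_one)
  have hsym := ContDiffWithinAt.isSymmSndFDerivWithinAt h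
    (by rw [minSmoothness_of_isRCLikeNormedField]; exact ENat.LEInfty.out) (sm_uniq hI)
    (by rw [hc.closure_interior_eq_closure_of_nonempty_interior hne]; exact subset_closure ⟨ht, hy⟩)
    ⟨ht, hy⟩
  have a1 := sm_auxT hy (hD.clm_apply (hasFDerivWithinAt_const ((0, 1) : ℝ × ℝ) (t, y) _))
  have a2 := sm_auxY ht (hD.clm_apply (hasFDerivWithinAt_const ((1, 0) : ℝ × ℝ) (t, y) _))
  have t1 : Tendsto (fun s : ℝ => ((s, y) : ℝ × ℝ)) (𝓝[I] t) (𝓝[I ×ˢ Icc 0 1] (t, y)) :=
    (continuous_id.prodMk continuous_const).continuousWithinAt.tendsto_nhdsWithin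
      fun _ hs => ⟨hs, hy⟩
  have t2 : Tendsto (fun z : ℝ => ((t, z) : ℝ × ℝ)) (𝓝[Icc 0 1] y) (𝓝[I ×ˢ Icc 0 1] (t, y)) :=
    (continuous_const.prodMk continuous_id).continuousWithinAt.tendsto_nhdsWithin
      fun _ hz => ⟨ht, hz⟩
  have b1 := dT_eq (u := P244.dY u) hI ht (a1.congr_of_eventuallyEq_of_mem (by
    filter_upwards [t1.eventually (smJ_ev h), self_mem_nhdsWithin] with s h1 hs
    exact dY_eq hy (sm_auxY hs h1)) ht)
  have b2 := dY_eq (u := P244.dT I u) hy (a2.congr_of_eventuallyEq_of_mem (by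
    filter_upwards [t2.eventually (smJ_ev h), self_mem_nhdsWithin] with z h1 hz
    exact dT_eq hI ht (sm_auxT hz h1)) hy)
  rw [b1, b2]
  simpa using hsym.eq (1, 0) (0, 1)

theorem smAt_const (c : ℝ) : SmAt I (fun _ _ => c) t y := contDiffWithinAt_const
theorem smAt_t : SmAt I (fun s _ => s) t y := contDiffWithinAt_fst
theorem smAt_y : SmAt I (fun _ z => z) t y := contDiffWithinAt_snd
theorem SmAt.add (h : SmAt I u t y) (h' : SmAt I v t y) :
    SmAt I (fun s z => u s z + v s z) t y := ContDiffWithinAt.add h h'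
theorem SmAt.sub (h : SmAt I u t y) (h' : SmAt I v t y) :
    SmAt I (fun s z => u s z - v s z) t y := ContDiffWithinAt.sub h h'
theorem SmAt.neg (h : SmAt I u t y) : SmAt I (fun s z => -u s z) t y := ContDiffWithinAt.neg h
theorem SmAt.mul (h : SmAt I u t y) (h' : SmAt I v t y) :
    SmAt I (fun s z => u s z * v s z) t y := ContDiffWithinAt.mul h h'
theorem SmAt.pow (h : SmAt I u t y) (n : ℕ) : SmAt I (fun s z => u s z ^ n) t y :=
  ContDiffWithinAt.pow h n
theorem SmAt.div (h : SmAt I u t y) (h' : SmAt I v t y) (h0 : v t y ≠ 0) :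
    SmAt I (fun s z => u s z / v s z) t y := ContDiffWithinAt.div h h' h0
theorem SmAt.exp (h : SmAt I u t y) : SmAt I (fun s z => exp (u s z)) t y :=
  ContDiffWithinAt.exp h
theorem SmAt.rpow (h : SmAt I u t y) (h0 : u t y ≠ 0) (q : ℝ) :
    SmAt I (fun s z => u s z ^ q) t y := ContDiffWithinAt.rpow_const_of_ne h h0

/-- Functions which agree near `y` have the same derivative. -/
theorem dY_congr_on {J : Set ℝ} (hJ : RO J) (e : EqOn (u t) (v t) J) : EqOn (dY u t) (dY v t) J := by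
  intro y hy
  exact Filter.EventuallyEq.derivWithin_eq (mem_of_superset (hJ y hy).2 fun z hz => e hz) (e hy)

theorem dX_congr_on {J : Set ℝ} (hJ : RO J) (e : EqOn (u t) (v t) J) : EqOn (dX u t) (dX v t) J := by
  intro y hy
  simp only [dX, dY_congr_on hJ e hy]

theorem XX_congr_on {J : Set ℝ} (hJ : RO J) (e : EqOn (u t) (v t) J) : EqOn (XX u t) (XX v t) J := by
  intro y hy
  simp only [XX, dY_congr_on hJ e hy]

theorem dT_congr (ht : t ∈ I) (e : ∀ s ∈ I, u s y = v s y) : dT I u t y = dT I v t y := by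
  exact derivWithin_congr (fun s hs => e s hs) (e t ht)

theorem smJ_evY (h : SmAt I u t y) (ht : t ∈ I) :
    ∀ᶠ z in 𝓝[Icc 0 1] y, HasDerivWithinAt (u t) (dY u t z) (Icc 0 1) z := by
  have h1 := ((h.slice ht).of_le (m := 1) (by simp)).eventually (by simp)
  filter_upwards [nhdsWithin_mono _ (subset_insert _ _) h1] with z hz
  exact (hz.differentiableWithinAt (by simp)).hasDerivWithinAt

theorem smJ_dX (hy : y ∈ Icc (0 : ℝ) 1) (e : ∀ᶠ z in 𝓝[Icc 0 1] y, u t z = v t z) :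
    dX u t y = dX v t y := by
  have : dY u t y = dY v t y :=
    Filter.EventuallyEq.derivWithin_eq e (mem_of_mem_nhdsWithin hy e :)
  simp only [dX, this]

section rules

variable (hI : TI I) (ht : t ∈ I) (hy : y ∈ Icc (0 : ℝ) 1)
include hI ht hy

theorem dX_add (h : SmAt I u t y) (h' : SmAt I v t y) :
    dX (fun s z => u s z + v s z) t y = dX u t y + dX v t y := by
  simp only [dX, dY_eq (u := fun s z => u s z + v s z) hy ((h.hasY ht).add (h'.hasY ht))]
  ring

theorem dX_sub (h : SmAt I u t y) (h' : SmAt I v t y) :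
    dX (fun s z => u s z - v s z) t y = dX u t y - dX v t y := by
  simp only [dX, dY_eq (u := fun s z => u s z - v s z) hy ((h.hasY ht).sub (h'.hasY ht))]
  ring

theorem dX_mul (h : SmAt I u t y) (h' : SmAt I v t y) :
    dX (fun s z => u s z * v s z) t y = dX u t y * v t y + u t y * dX v t y := by
  simp only [dX, dY_eq (u := fun s z => u s z * v s z) hy ((h.hasY ht).mul (h'.hasY ht))]
  ring

theorem dX_comp (h : SmAt I u t y) {φ : ℝ → ℝ} {d : ℝ} (hφ : HasDerivAt φ d (u t y)) :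
    dX (fun s z => φ (u s z)) t y = d * dX u t y := by
  simp only [dX, dY_eq (u := fun s z => φ (u s z)) hy (hφ.comp_hasDerivWithinAt y (h.hasY ht))]
  ring

theorem dX_time (φ : ℝ → ℝ) : dX (fun s _ => φ s) t y = 0 := by
  simp [dX, dY]

theorem dX_y : dX (fun _ z => z) t y = 2 * (y * (1 - y)) := by
  simp only [dX, dY_eq (u := fun _ z => z) (t := t) hy (hasDerivWithinAt_id y _), mul_one]

theorem dT_add (h : SmAt I u t y) (h' : SmAt I v t y) :
    dT I (fun s z => u s z + v s z) t y = dT I u t y + dT I v t y := by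
  exact dT_eq hI ht ((h.hasT hy).add (h'.hasT hy))

theorem dT_sub (h : SmAt I u t y) (h' : SmAt I v t y) :
    dT I (fun s z => u s z - v s z) t y = dT I u t y - dT I v t y := by
  exact dT_eq hI ht ((h.hasT hy).sub (h'.hasT hy))

theorem dT_mul (h : SmAt I u t y) (h' : SmAt I v t y) :
    dT I (fun s z => u s z * v s z) t y = dT I u t y * v t y + u t y * dT I v t y := by
  exact dT_eq hI ht ((h.hasT hy).mul (h'.hasT hy))

theorem dT_comp (h : SmAt I u t y) {φ : ℝ → ℝ} {d : ℝ} (hφ : HasDerivAt φ d (u t y)) :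
    dT I (fun s z => φ (u s z)) t y = d * dT I u t y := by
  exact dT_eq hI ht (hφ.comp_hasDerivWithinAt t (h.hasT hy))

theorem dT_dX (h : SmAt I u t y) : dT I (dX u) t y = dX (dT I u) t y := by
  rw [dT_eq (u := dX u) hI ht (((h.dY hI ht hy).hasT hy).const_mul (2 * (y * (1 - y)))),
    h.comm hI ht hy]
  rfl

theorem pop_add (S : St) (h : SmAt I u t y) (h' : SmAt I v t y) :
    S.Pop I (fun s z => u s z + v s z) t y = S.Pop I u t y + S.Pop I v t y := by
  have e : dX (dX fun s z => u s z + v s z) t y = dX (fun s z => dX u s z + dX v s z) t y := by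
    refine smJ_dX hy ?_
    filter_upwards [smJ_evY h ht, smJ_evY h' ht, self_mem_nhdsWithin] with z h1 h2 hz
    simp only [dX, dY_eq (u := fun s z => u s z + v s z) hz (h1.add h2)]
    ring
  simp only [St.Pop, e, dX_add hI ht hy h h', dT_add hI ht hy h h',
    dX_add hI ht hy (h.dX hI ht hy) (h'.dX hI ht hy)]
  ring

theorem pop_sub (S : St) (h : SmAt I u t y) (h' : SmAt I v t y) :
    S.Pop I (fun s z => u s z - v s z) t y = S.Pop I u t y - S.Pop I v t y := by
  have e : dX (dX fun s z => u s z - v s z) t y = dX (fun s z => dX u s z - dX v s z) t y := by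
    refine smJ_dX hy ?_
    filter_upwards [smJ_evY h ht, smJ_evY h' ht, self_mem_nhdsWithin] with z h1 h2 hz
    simp only [dX, dY_eq (u := fun s z => u s z - v s z) hz (h1.sub h2)]
    ring
  simp only [St.Pop, e, dX_sub hI ht hy h h', dT_sub hI ht hy h h',
    dX_sub hI ht hy (h.dX hI ht hy) (h'.dX hI ht hy)]
  ring

theorem pop_const (S : St) (c : ℝ) : S.Pop I (fun _ _ => c) t y = 0 := by
  have e : dX (fun _ _ => c) = fun _ _ => 0 := by
    funext s z
    simp [dX, dY]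
  have e' : dX (fun _ _ => (0 : ℝ)) t y = 0 := by simp [dX, dY]
  have e2 : dT I (fun _ _ => c) t y = 0 := dT_eq hI ht (hasDerivWithinAt_const t I c)
  simp only [St.Pop, e, e', e2]
  ring

theorem pop_time (S : St) {φ : ℝ → ℝ} {d : ℝ} (hφ : HasDerivAt φ d t) :
    S.Pop I (fun s _ => φ s) t y = S.f2 t y * d := by
  have e : dX (fun s _ => φ s) = fun _ _ => 0 := by
    funext s z
    simp [dX, dY]
  have e' : dX (fun _ _ => (0 : ℝ)) t y = 0 := by simp [dX, dY]
  have e2 : dT I (fun s _ => φ s) t y = d := dT_eq hI ht hφ.hasDerivWithinAt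
  simp only [St.Pop, e, e', e2]
  ring

theorem pop_mul (S : St) (h : SmAt I u t y) (h' : SmAt I v t y) :
    S.Pop I (fun s z => u s z * v s z) t y =
      S.Pop I u t y * v t y + u t y * S.Pop I v t y - 2 * dX u t y * dX v t y := by
  have e : dX (dX fun s z => u s z * v s z) t y =
      dX (fun s z => dX u s z * v s z + u s z * dX v s z) t y := by
    refine smJ_dX hy ?_
    filter_upwards [smJ_evY h ht, smJ_evY h' ht, self_mem_nhdsWithin] with z h1 h2 hz
    simp only [dX, dY_eq (u := fun s z => u s z * v s z) hz (h1.mul h2)]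
    ring
  have g := h.dX hI ht hy
  have g' := h'.dX hI ht hy
  simp only [St.Pop, e, dX_mul hI ht hy h h', dT_mul hI ht hy h h',
    dX_add hI ht hy (g.mul h') (h.mul g'), dX_mul hI ht hy g h', dX_mul hI ht hy h g']
  ring

/-- Chain rule: `𝒫 φ(u) = φ'(u) 𝒫 u - φ''(u) u'²`. -/
theorem pop_comp (S : St) (h : SmAt I u t y) {φ φ' : ℝ → ℝ} {d : ℝ}
    (hφ : ∀ᶠ x in 𝓝 (u t y), HasDerivAt φ (φ' x) x) (hφ' : HasDerivAt φ' d (u t y)) :
    S.Pop I (fun s z => φ (u s z)) t y = φ' (u t y) * S.Pop I u t y - d * dX u t y ^ 2 := by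
  have hc : Tendsto (u t) (𝓝[Icc 0 1] y) (𝓝 (u t y)) := (h.hasY ht).continuousWithinAt
  have e : dX (dX fun s z => φ (u s z)) t y = dX (fun s z => φ' (u s z) * dX u s z) t y := by
    refine smJ_dX hy ?_
    filter_upwards [smJ_evY h ht, hc.eventually hφ, self_mem_nhdsWithin] with z h1 h2 hz
    simp only [dX, dY_eq (u := fun s z => φ (u s z)) hz (h2.comp_hasDerivWithinAt z h1)]
    ring
  have e2 : dX (fun s z => φ' (u s z) * dX u s z) t y =
      d * dX u t y ^ 2 + φ' (u t y) * dX (dX u) t y := by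
    have a := dY_eq (u := fun s z => φ' (u s z) * dX u s z) hy
      ((hφ'.comp_hasDerivWithinAt y (h.hasY ht)).mul ((h.dX hI ht hy).hasY ht))
    have b : dX u t y = 2 * (y * (1 - y)) * dY u t y := rfl
    have c : dX (dX u) t y = 2 * (y * (1 - y)) * dY (dX u) t y := rfl
    change 2 * (y * (1 - y)) * dY (fun s z => φ' (u s z) * dX u s z) t y = _
    rw [a, c, Function.comp_apply, sq]
    nth_rewrite 2 [b]
    ring
  simp only [St.Pop, e, e2, dX_comp hI ht hy h hφ.self_of_nhds, dT_comp hI ht hy h hφ.self_of_nhds]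
  ring

theorem pop_congr (S : St) {J : Set ℝ} (hJ : RO J) (hyJ : y ∈ J)
    (e : ∀ s ∈ I, EqOn (u s) (v s) J) : S.Pop I u t y = S.Pop I v t y := by
  simp only [St.Pop, dT_congr ht fun s hs => e s hs hyJ, dX_congr_on hJ (e t ht) hyJ,
    dX_congr_on hJ (dX_congr_on hJ (e t ht)) hyJ]

end rules

end

end Vale.Agent.P244
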